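import Mathlib
import Vale.Agent.P181.Canon

/-!
Foulkes' conjecture for all `b ≥ (a-1)^2`, uniformly in the dimension, via the canonical maps.
-/

namespace Vale.Agent.Results.P181.Quadratic

open Vale.Agent.P181

theorem result (a b : ℕ) (hab : (a - 1) ^ 2 ≤ b)
    (V : Type*) [AddCommGroup V] [Module ℂ V] [FiniteDimensional ℂ V] :
    ∃ (ρ₁ : Representation ℂ (V ≃ₗ[ℂ] V)
          (SymmetricPower ℂ (Fin a) (SymmetricPower ℂ (Fin b) V)))
      (ρ₂ : Representation ℂ (V ≃ₗ[ℂ] V)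
          (SymmetricPower ℂ (Fin b) (SymmetricPower ℂ (Fin a) V)))
      (Ψ : SymmetricPower ℂ (Fin a) (SymmetricPower ℂ (Fin b) V) →ₗ[ℂ]
          SymmetricPower ℂ (Fin b) (SymmetricPower ℂ (Fin a) V))
      (Ψ' : SymmetricPower ℂ (Fin b) (SymmetricPower ℂ (Fin a) V) →ₗ[ℂ]
          SymmetricPower ℂ (Fin a) (SymmetricPower ℂ (Fin b) V)),
      (∀ (g : V ≃ₗ[ℂ] V) (v : Fin a → Fin b → V),
        ρ₁ g (SymmetricPower.tprod ℂ fun i => SymmetricPower.tprod ℂ fun j => v i j)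
          = SymmetricPower.tprod ℂ fun i => SymmetricPower.tprod ℂ fun j => g (v i j)) ∧
      (∀ (g : V ≃ₗ[ℂ] V) (v : Fin b → Fin a → V),
        ρ₂ g (SymmetricPower.tprod ℂ fun j => SymmetricPower.tprod ℂ fun i => v j i)
          = SymmetricPower.tprod ℂ fun j => SymmetricPower.tprod ℂ fun i => g (v j i)) ∧
      (∀ v : Fin a → Fin b → V,
        Ψ (SymmetricPower.tprod ℂ fun i => SymmetricPower.tprod ℂ fun j => v i j)
          = ∑ σ : Fin a → Equiv.Perm (Fin b),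
              SymmetricPower.tprod ℂ fun j => SymmetricPower.tprod ℂ fun i => v i (σ i j)) ∧
      (∀ v : Fin b → Fin a → V,
        Ψ' (SymmetricPower.tprod ℂ fun j => SymmetricPower.tprod ℂ fun i => v j i)
          = ∑ τ : Fin b → Equiv.Perm (Fin a),
              SymmetricPower.tprod ℂ fun i => SymmetricPower.tprod ℂ fun j => v j (τ j i)) ∧
      (∀ g x, Ψ (ρ₁ g x) = ρ₂ g (Ψ x)) ∧ Function.Injective Ψ ∧
      (∀ g y, Ψ' (ρ₂ g y) = ρ₁ g (Ψ' y)) ∧ Function.Surjective Ψ' := by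
  obtain ⟨ρ₁, h₁⟩ := exists_ttRep (Fin a) (Fin b) V
  obtain ⟨ρ₂, h₂⟩ := exists_ttRep (Fin b) (Fin a) V
  obtain ⟨Ψ, hΨ⟩ := exists_psi (α := Fin a) (β := Fin b) (V := V)
  obtain ⟨Ψ', hΨ'⟩ := exists_psi (α := Fin b) (β := Fin a) (V := V)
  refine ⟨ρ₁, ρ₂, Ψ, Ψ', fun g v => h₁ g fun p => v p.1 p.2, fun g v => h₂ g fun p => v p.1 p.2,
    fun v => hΨ fun p => v p.1 p.2, fun v => hΨ' fun p => v p.1 p.2, fun g x => ?_,
    psi_injective (span_col a b hab) Ψ hΨ, fun g y => ?_,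
    psi_surjective (span_col a b hab) Ψ' hΨ'⟩
  · have : Ψ ∘ₗ ρ₁ g = ρ₂ g ∘ₗ Ψ := tt_ext fun w => by
      simp only [LinearMap.comp_apply, h₁, hΨ, map_sum, h₂]
    exact congrArg (fun f => f x) this
  · have : Ψ' ∘ₗ ρ₂ g = ρ₁ g ∘ₗ Ψ' := tt_ext fun w => by
      simp only [LinearMap.comp_apply, h₂, hΨ', map_sum, h₁]
    exact congrArg (fun f => f y) this

end Vale.Agent.Results.P181.Quadratic
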