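import Mathlib
import Vale.Agent.P181.Final

/-!
Foulkes' conjecture for `a = 6` and all `b ≥ 6`.
-/

namespace Vale.Agent.Results.P181.Six

open Vale.Agent.P181

theorem result (b : ℕ) (hb : 6 ≤ b)
    (V : Type*) [AddCommGroup V] [Module ℂ V] [FiniteDimensional ℂ V] :
    ∃ (ρ₁ : Representation ℂ (V ≃ₗ[ℂ] V)
          (SymmetricPower ℂ (Fin 6) (SymmetricPower ℂ (Fin b) V)))
      (ρ₂ : Representation ℂ (V ≃ₗ[ℂ] V)
          (SymmetricPower ℂ (Fin b) (SymmetricPower ℂ (Fin 6) V)))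
      (Φ : SymmetricPower ℂ (Fin 6) (SymmetricPower ℂ (Fin b) V) →ₗ[ℂ]
          SymmetricPower ℂ (Fin b) (SymmetricPower ℂ (Fin 6) V)),
      (∀ (g : V ≃ₗ[ℂ] V) (v : Fin 6 → Fin b → V),
        ρ₁ g (SymmetricPower.tprod ℂ fun i => SymmetricPower.tprod ℂ fun j => v i j)
          = SymmetricPower.tprod ℂ fun i => SymmetricPower.tprod ℂ fun j => g (v i j)) ∧
      (∀ (g : V ≃ₗ[ℂ] V) (v : Fin b → Fin 6 → V),
        ρ₂ g (SymmetricPower.tprod ℂ fun j => SymmetricPower.tprod ℂ fun i => v j i)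
          = SymmetricPower.tprod ℂ fun j => SymmetricPower.tprod ℂ fun i => g (v j i)) ∧
      Function.Injective Φ ∧ ∀ g x, Φ (ρ₁ g x) = ρ₂ g (Φ x) := by
  obtain ⟨ρ₁, h₁⟩ := exists_ttRep (Fin 6) (Fin b) V
  obtain ⟨ρ₂, h₂⟩ := exists_ttRep (Fin b) (Fin 6) V
  obtain ⟨Φ, hΦ⟩ := foulkes_six b hb V ρ₁ ρ₂ h₁ h₂
  exact ⟨ρ₁, ρ₂, Φ, fun g v => h₁ g fun p => v p.1 p.2, fun g v => h₂ g fun p => v p.1 p.2, hΦ⟩

end Vale.Agent.Results.P181.Six
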