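import Mathlib
import Vale.Agent.P181.Final

/-!
Foulkes' conjecture for `a = 6` and all `b ≥ 6`, and for all `a` and all `b ≥ (a-1)^2`.
-/

namespace Vale.Agent.Results.P181.SixAndQuadratic

open Vale.Agent.P181

theorem result (a b : ℕ) (V : Type*) [AddCommGroup V] [Module ℂ V] [FiniteDimensional ℂ V] :
    ∃ (ρ₁ : Representation ℂ (V ≃ₗ[ℂ] V)
          (SymmetricPower ℂ (Fin a) (SymmetricPower ℂ (Fin b) V)))
      (ρ₂ : Representation ℂ (V ≃ₗ[ℂ] V)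
          (SymmetricPower ℂ (Fin b) (SymmetricPower ℂ (Fin a) V)))
      (Ψ : SymmetricPower ℂ (Fin a) (SymmetricPower ℂ (Fin b) V) →ₗ[ℂ]
          SymmetricPower ℂ (Fin b) (SymmetricPower ℂ (Fin a) V))
      (Ψ' : SymmetricPower ℂ (Fin b) (SymmetricPower ℂ (Fin a) V) →ₗ[ℂ]
          SymmetricPower ℂ (Fin a) (SymmetricPower ℂ (Fin b) V)),
      (∀ (g : V ≃ₗ[ℂ] V) (v : Fin a → Fin b → V),
        ρ₁ g (SymmetricPower.tprod ℂ fun i => SymmetricPower.tprod ℂ fun j => v i j)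
          = SymmetricPower.tprod ℂ fun i => SymmetricPower.tprod ℂ fun j => g (v i j)) ∧
      (∀ (g : V ≃ₗ[ℂ] V) (v : Fin b → Fin a → V),
        ρ₂ g (SymmetricPower.tprod ℂ fun j => SymmetricPower.tprod ℂ fun i => v j i)
          = SymmetricPower.tprod ℂ fun j => SymmetricPower.tprod ℂ fun i => g (v j i)) ∧
      (∀ v : Fin a → Fin b → V,
        Ψ (SymmetricPower.tprod ℂ fun i => SymmetricPower.tprod ℂ fun j => v i j)
          = ∑ σ : Fin a → Equiv.Perm (Fin b),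
              SymmetricPower.tprod ℂ fun j => SymmetricPower.tprod ℂ fun i => v i (σ i j)) ∧
      (∀ v : Fin b → Fin a → V,
        Ψ' (SymmetricPower.tprod ℂ fun j => SymmetricPower.tprod ℂ fun i => v j i)
          = ∑ τ : Fin b → Equiv.Perm (Fin a),
              SymmetricPower.tprod ℂ fun i => SymmetricPower.tprod ℂ fun j => v j (τ j i)) ∧
      (∀ g x, Ψ (ρ₁ g x) = ρ₂ g (Ψ x)) ∧ (∀ g y, Ψ' (ρ₂ g y) = ρ₁ g (Ψ' y)) ∧
      ((a - 1) ^ 2 ≤ b → Function.Injective Ψ ∧ Function.Surjective Ψ') ∧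
      (a = 6 → 6 ≤ b →
        ∃ Φ : SymmetricPower ℂ (Fin a) (SymmetricPower ℂ (Fin b) V) →ₗ[ℂ]
            SymmetricPower ℂ (Fin b) (SymmetricPower ℂ (Fin a) V),
          Function.Injective Φ ∧ ∀ g x, Φ (ρ₁ g x) = ρ₂ g (Φ x)) := by
  obtain ⟨ρ₁, h₁⟩ := exists_ttRep (Fin a) (Fin b) V
  obtain ⟨ρ₂, h₂⟩ := exists_ttRep (Fin b) (Fin a) V
  obtain ⟨Ψ, hΨ⟩ := exists_psi (α := Fin a) (β := Fin b) (V := V)
  obtain ⟨Ψ', hΨ'⟩ := exists_psi (α := Fin b) (β := Fin a) (V := V)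
  refine ⟨ρ₁, ρ₂, Ψ, Ψ', fun g v => h₁ g fun p => v p.1 p.2, fun g v => h₂ g fun p => v p.1 p.2,
    fun v => hΨ fun p => v p.1 p.2, fun v => hΨ' fun p => v p.1 p.2,
    psi_equivariant ρ₁ ρ₂ h₁ h₂ Ψ hΨ, psi_equivariant ρ₂ ρ₁ h₂ h₁ Ψ' hΨ',
    fun hab => ⟨psi_injective (span_col a b hab) Ψ hΨ, psi_surjective (span_col a b hab) Ψ' hΨ'⟩,
    ?_⟩
  rintro rfl hb
  exact foulkes_six b hb V ρ₁ ρ₂ h₁ h₂

end Vale.Agent.Results.P181.SixAndQuadratic
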